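import Vale.Agent.P183.R2.H668.KW.Spec

set_option autoImplicit false

/-!
P183.ManyRepresentable, Kleitman-Winston bound, row A2.
-/

namespace Vale.Agent.P183.R2.H431.KW

open Finset Vale.Agent.P183.R2.H668.KW

theorem rowA2 : StA2 := by
  intro V _ _ G _ hC T hT δ hδ hdeg B hBT hcard hBne
  -- pairs of different elements of `B` with a common neighbour
  have key : ∑ w ∈ T, ((B.filter (fun y => G.Adj w y)).offDiag).card ≤
      ∑ x ∈ B, (B.filter (fun y => x ≠ y ∧ ∃ w, G.Adj w x ∧ G.Adj w y)).card := by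
    rw [← Finset.card_sigma, ← Finset.card_sigma]
    refine Finset.card_le_card_of_injOn
      (fun z : (Σ _ : V, V × V) => (⟨z.2.1, z.2.2⟩ : Σ _ : V, V)) ?_ ?_
    · rintro ⟨w, x, y⟩ hz
      simp only [Finset.mem_coe, Finset.mem_sigma, Finset.mem_offDiag, Finset.mem_filter] at hz ⊢
      obtain ⟨_, ⟨hx, hwx⟩, ⟨hy, hwy⟩, hne⟩ := hz
      exact ⟨hx, hy, hne, w, hwx, hwy⟩
    · rintro ⟨w, x, y⟩ hz ⟨w', x', y'⟩ hz' h
      simp only [Finset.mem_coe, Finset.mem_sigma, Finset.mem_offDiag, Finset.mem_filter] at hz hz'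
      obtain ⟨_, ⟨hx, hwx⟩, ⟨hy, hwy⟩, hne⟩ := hz
      obtain ⟨_, ⟨hx', hwx'⟩, ⟨hy', hwy'⟩, hne'⟩ := hz'
      simp only [Sigma.mk.injEq, heq_eq_eq] at h
      obtain ⟨rfl, rfl⟩ := h
      have hw : w = w' := hC x y w w' hne hwx.symm hwy.symm hwx'.symm hwy'.symm
      rw [hw]
  -- the sum of the degrees
  have hS : δ * B.card ≤ ∑ w ∈ T, (B.filter (fun y => G.Adj w y)).card := by
    have h1 : ∑ w ∈ T, (B.filter (fun y => G.Adj w y)).card =
        ∑ y ∈ B, (T.filter (fun w => G.Adj w y)).card :=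
      Finset.sum_card_bipartiteAbove_eq_sum_card_bipartiteBelow (fun w y => G.Adj w y)
    rw [h1, mul_comm, ← smul_eq_mul]
    apply Finset.card_nsmul_le_sum
    intro y hy
    refine (hdeg y (hBT hy)).trans (Finset.card_le_card ?_)
    intro w hw
    have hw' := (Finset.mem_filter.1 hw).2
    exact Finset.mem_filter.2 ⟨hT w y hw'.symm, hw'.symm⟩
  have hTpos : (0 : ℝ) < T.card := by
    obtain ⟨b, hb⟩ := hBne
    exact_mod_cast Finset.card_pos.2 ⟨b, hBT hb⟩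
  apply Finset.exists_le_of_sum_le hBne
  rw [Finset.sum_const, nsmul_eq_mul]
  have hkey : ((∑ w ∈ T, ((B.filter (fun y => G.Adj w y)).offDiag).card : ℕ) : ℝ) ≤
      ((∑ x ∈ B, (B.filter (fun y => x ≠ y ∧ ∃ w, G.Adj w x ∧ G.Adj w y)).card : ℕ) : ℝ) := by
    exact_mod_cast key
  rw [Nat.cast_sum, Nat.cast_sum] at hkey
  refine le_trans ?_ hkey
  have hoff : ∀ w ∈ T, (((B.filter (fun y => G.Adj w y)).offDiag.card : ℕ) : ℝ) =
      ((B.filter (fun y => G.Adj w y)).card : ℝ) ^ 2 -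
        ((B.filter (fun y => G.Adj w y)).card : ℝ) := by
    intro w _
    rw [Finset.offDiag_card, Nat.cast_sub (Nat.le_mul_self _), Nat.cast_mul, sq]
  rw [Finset.sum_congr rfl hoff, Finset.sum_sub_distrib]
  have hcs : (∑ w ∈ T, ((B.filter (fun y => G.Adj w y)).card : ℝ)) ^ 2 ≤
      T.card * ∑ w ∈ T, ((B.filter (fun y => G.Adj w y)).card : ℝ) ^ 2 :=
    sq_sum_le_card_mul_sum_sq
  have hS' : (δ : ℝ) * B.card ≤ ∑ w ∈ T, ((B.filter (fun y => G.Adj w y)).card : ℝ) := by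
    exact_mod_cast hS
  have hc' : 2 * (T.card : ℝ) ≤ (δ : ℝ) * B.card := by exact_mod_cast hcard
  set S : ℝ := ∑ w ∈ T, ((B.filter (fun y => G.Adj w y)).card : ℝ) with hSdef
  set Q : ℝ := ∑ w ∈ T, ((B.filter (fun y => G.Adj w y)).card : ℝ) ^ 2 with hQdef
  set t : ℝ := (T.card : ℝ) with ht
  set b : ℝ := (B.card : ℝ) with hb
  have hδb : 0 ≤ (δ : ℝ) * b := by positivity
  have h2 : b * ((δ : ℝ) ^ 2 / (2 * t) * b) = ((δ : ℝ) * b) ^ 2 / (2 * t) := by
    field_simp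
  rw [h2, div_le_iff₀ (by positivity)]
  nlinarith [mul_self_nonneg (S - δ * b), mul_nonneg hTpos.le (sub_nonneg.2 hS'),
    mul_nonneg (sub_nonneg.2 hS') hδb, mul_nonneg (sub_nonneg.2 hS') (sub_nonneg.2 hS')]

end Vale.Agent.P183.R2.H431.KW
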